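import Vale.Agent.Lib.P061.VertexCover

/-!
# P061: a heavy-forest criterion for thin trees

Let `G` be a `k`-edge-connected multigraph and `γ ≥ 0`.  Call a pair of distinct vertices heavy
when it is joined by at least `k / γ` parallel edge copies.  If the simple graph of heavy pairs
has at most `c + 1` connected components, then `G` has a `((γ + c) / k)`-thin spanning tree.
-/

namespace Vale.Agent.Results.P061.HeavyForestThin

open Vale.Agent.Lib.P061

theorem result (k n m c : ℕ) (γ : ℝ) (ends : Fin m → Sym2 (Fin n))
    (hk : 1 ≤ k) (hn : 1 ≤ n) (hγ : 0 ≤ γ) (hconn : EdgeConn k ends)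
    (hcomp : Nat.card (heavyGraph ends k γ).ConnectedComponent ≤ c + 1) :
    ∃ T : Set (Fin m), SpanTree ends T ∧ Thin ((γ + (c : ℝ)) / (k : ℝ)) ends T := by
  haveI : Nonempty (Fin n) := ⟨⟨0, by omega⟩⟩
  exact exists_thin_of_heavy_components hk hγ hconn hcomp

end Vale.Agent.Results.P061.HeavyForestThin
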