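import Vale.Agent.Lib.P061.Complete
import Vale.Agent.Lib.P061.VertexCover

/-!
# P061: a lower bound for every `k` and two classes with thin trees, in one statement

1. If every `k`-edge-connected loopless multigraph on at least two vertices has a
   `(C / k)`-thin spanning tree (for all `k ≥ 1`), then `C ≥ 4`.
2. For every `k ≥ 1` the complete graph on `k + 1` vertices is a `k`-edge-connected loopless
   graph without parallel edges in which every `α`-thin spanning tree has
   `α ≥ 4 k / (k + 1) ^ 2`.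
3. Every `k`-edge-connected multigraph (`k ≥ 1`, at least two vertices) with a vertex cover of
   at most `c` vertices has a `((2 c - 1) / k)`-thin spanning tree.
4. If the pairs of distinct vertices joined by at least `k / γ` parallel edge copies form a
   simple graph with at most `c + 1` connected components, then a `k`-edge-connected multigraph
   has a `((γ + c) / k)`-thin spanning tree.
-/

namespace Vale.Agent.Results.P061.LowerBoundAndTwoClasses

open Vale.Agent.Lib.P061

/-- Part 1: the constant is at least `4`. -/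
theorem const_part (C : ℝ)
    (hC : ∀ (k n m : ℕ) (ends : Fin m → Sym2 (Fin n)), 1 ≤ k → 2 ≤ n →
      (∀ e, ¬ (ends e).IsDiag) → EdgeConn k ends →
      ∃ T : Set (Fin m), SpanTree ends T ∧ Thin (C / (k : ℝ)) ends T) :
    4 ≤ C := by
  by_contra hlt
  rw [not_le] at hlt
  have hpos : 0 < 4 - C := by linarith
  obtain ⟨N, hN⟩ := exists_nat_gt (8 / (4 - C))
  set n : ℕ := N + 2 with hn
  have hn2 : 2 ≤ n := by omega
  obtain ⟨T, hT, hthin⟩ := hC (n - 1) n (completeSize n) (completeEnds n) (by omega) hn2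
    (completeEnds_loopless n) (complete_edgeConn n)
  have h := complete_thin_lower n hn2 hT hthin
  have hcast : ((n - 1 : ℕ) : ℝ) = (n : ℝ) - 1 := by
    rw [Nat.cast_sub (by omega)]; simp
  rw [hcast] at h
  have hn1 : (0 : ℝ) < (n : ℝ) - 1 := by
    have : (2 : ℝ) ≤ (n : ℝ) := by exact_mod_cast hn2
    linarith
  have h2 : 4 * ((n : ℝ) - 1) ^ 2 ≤ C * (n : ℝ) ^ 2 := by
    have h3 : C / ((n : ℝ) - 1) * (n : ℝ) ^ 2 * ((n : ℝ) - 1) = C * (n : ℝ) ^ 2 := by
      field_simp
    have h4 : 4 * ((n : ℝ) - 1) * ((n : ℝ) - 1) ≤ C / ((n : ℝ) - 1) * (n : ℝ) ^ 2 * ((n : ℝ) - 1) :=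
      mul_le_mul_of_nonneg_right h hn1.le
    rw [h3] at h4
    nlinarith
  have hnN : (n : ℝ) = (N : ℝ) + 2 := by rw [hn]; push_cast; ring
  have h5 : 8 < (4 - C) * (N : ℝ) := by
    have := (div_lt_iff₀ hpos).mp hN
    linarith
  have hNpos : (0 : ℝ) ≤ (N : ℝ) := Nat.cast_nonneg N
  rw [hnN] at h2
  nlinarith

/-- Part 2: the complete graph on `k + 1` vertices. -/
theorem every_k_part (k : ℕ) (hk : 1 ≤ k) :
    ∃ (n m : ℕ) (ends : Fin m → Sym2 (Fin n)), 2 ≤ n ∧ (∀ e, ¬ (ends e).IsDiag) ∧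
      Function.Injective ends ∧ EdgeConn k ends ∧
      ∀ (T : Set (Fin m)) (α : ℝ), SpanTree ends T → Thin α ends T →
        4 * (k : ℝ) / ((k : ℝ) + 1) ^ 2 ≤ α := by
  refine ⟨k + 1, completeSize (k + 1), completeEnds (k + 1), by omega,
    completeEnds_loopless (k + 1), completeEnds_injective (k + 1), ?_, ?_⟩
  · have := complete_edgeConn (k + 1)
    simpa using this
  · intro T α hT hthin
    have h := complete_thin_lower (k + 1) (by omega) hT hthin
    push_cast at h
    have hpos : (0 : ℝ) < ((k : ℝ) + 1) ^ 2 := by positivity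
    rw [div_le_iff₀ hpos]
    linarith

theorem result :
    (∀ C : ℝ,
      (∀ (k n m : ℕ) (ends : Fin m → Sym2 (Fin n)), 1 ≤ k → 2 ≤ n →
        (∀ e, ¬ (ends e).IsDiag) → EdgeConn k ends →
        ∃ T : Set (Fin m), SpanTree ends T ∧ Thin (C / (k : ℝ)) ends T) →
      4 ≤ C) ∧
    (∀ k : ℕ, 1 ≤ k →
      ∃ (n m : ℕ) (ends : Fin m → Sym2 (Fin n)), 2 ≤ n ∧ (∀ e, ¬ (ends e).IsDiag) ∧
        Function.Injective ends ∧ EdgeConn k ends ∧
        ∀ (T : Set (Fin m)) (α : ℝ), SpanTree ends T → Thin α ends T →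
          4 * (k : ℝ) / ((k : ℝ) + 1) ^ 2 ≤ α) ∧
    (∀ (k n m c : ℕ) (ends : Fin m → Sym2 (Fin n)) (X : Set (Fin n)),
      1 ≤ k → 2 ≤ n → EdgeConn k ends → (∀ e, ∃ a ∈ X, a ∈ ends e) → X.ncard ≤ c →
      ∃ T : Set (Fin m), SpanTree ends T ∧ Thin ((2 * (c : ℝ) - 1) / (k : ℝ)) ends T) ∧
    (∀ (k n m c : ℕ) (γ : ℝ) (ends : Fin m → Sym2 (Fin n)),
      1 ≤ k → 1 ≤ n → 0 ≤ γ → EdgeConn k ends →
      Nat.card (heavyGraph ends k γ).ConnectedComponent ≤ c + 1 →
      ∃ T : Set (Fin m), SpanTree ends T ∧ Thin ((γ + (c : ℝ)) / (k : ℝ)) ends T) := by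
  refine ⟨const_part, every_k_part, ?_, ?_⟩
  · intro k n m c ends X hk hn hconn hX hc
    exact exists_thin_of_vertexCover hk (by simpa using hn) hconn X hX hc
  · intro k n m c γ ends hk hn hγ hconn hcomp
    have hne : Nonempty (Fin n) := ⟨⟨0, by omega⟩⟩
    exact exists_thin_of_heavy_components hk hγ hconn hcomp

end Vale.Agent.Results.P061.LowerBoundAndTwoClasses
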