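import Vale.Agent.Lib.P061.Complete

/-!
# P061: for every `k` a `k`-edge-connected simple graph without `α`-thin trees, `α < 4k/(k+1)^2`

For every `k ≥ 1` the complete graph on `k + 1` vertices is a `k`-edge-connected loopless graph
without parallel edges in which every spanning tree that is `α`-thin has
`α ≥ 4 k / (k + 1) ^ 2 = (4 / k) * (k / (k + 1)) ^ 2`.
-/

namespace Vale.Agent.Results.P061.LowerBoundEveryK

open Vale.Agent.Lib.P061

theorem result (k : ℕ) (hk : 1 ≤ k) :
    ∃ (n m : ℕ) (ends : Fin m → Sym2 (Fin n)), 2 ≤ n ∧ (∀ e, ¬ (ends e).IsDiag) ∧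
      Function.Injective ends ∧ EdgeConn k ends ∧
      ∀ (T : Set (Fin m)) (α : ℝ), SpanTree ends T → Thin α ends T →
        4 * (k : ℝ) / ((k : ℝ) + 1) ^ 2 ≤ α := by
  refine ⟨k + 1, completeSize (k + 1), completeEnds (k + 1), by omega,
    completeEnds_loopless (k + 1), completeEnds_injective (k + 1), ?_, ?_⟩
  · have := complete_edgeConn (k + 1)
    simpa using this
  · intro T α hT hthin
    have h := complete_thin_lower (k + 1) (by omega) hT hthin
    push_cast at h
    have hpos : (0 : ℝ) < ((k : ℝ) + 1) ^ 2 := by positivity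
    rw [div_le_iff₀ hpos]
    linarith
end Vale.Agent.Results.P061.LowerBoundEveryK
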