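import Vale.Agent.Lib.P061.VertexCover

/-!
# P061: the strong thin tree conjecture for bounded vertex cover number

Every `k`-edge-connected multigraph (`k ≥ 1`, at least two vertices) that has a vertex cover of
at most `c` vertices has a `((2 c - 1) / k)`-thin spanning tree.
-/

namespace Vale.Agent.Results.P061.VertexCoverThin

open Vale.Agent.Lib.P061

theorem result (k n m c : ℕ) (ends : Fin m → Sym2 (Fin n)) (X : Set (Fin n))
    (hk : 1 ≤ k) (hn : 2 ≤ n) (hconn : EdgeConn k ends)
    (hX : ∀ e, ∃ a ∈ X, a ∈ ends e) (hc : X.ncard ≤ c) :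
    ∃ T : Set (Fin m), SpanTree ends T ∧ Thin ((2 * (c : ℝ) - 1) / (k : ℝ)) ends T :=
  exists_thin_of_vertexCover hk (by simpa using hn) hconn X hX hc

end Vale.Agent.Results.P061.VertexCoverThin
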